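import Vale.Agent.P166A.Compare

/-!
# P166: asymptotics of sorted arrays of eigenvalues
-/

open MeasureTheory Matrix Filter

namespace Vale.Agent.P166A

/-- a continuous ramp from `0` at `t` to `1` at `t + δ` -/
noncomputable def ramp (t δ : ℝ) : BoundedContinuousFunction ℝ ℝ :=
  BoundedContinuousFunction.ofNormedAddCommGroup (fun x => min 1 (max 0 ((x - t) / δ)))
    (by fun_prop) 1 (fun x => by
      rw [Real.norm_eq_abs, abs_le]
      constructor
      · have : 0 ≤ min 1 (max 0 ((x - t) / δ)) := le_min zero_le_one (le_max_left _ _)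
        linarith
      · exact min_le_left _ _)

theorem ramp_apply (t δ x : ℝ) : ramp t δ x = min 1 (max 0 ((x - t) / δ)) := rfl

theorem ramp_nonneg (t δ x : ℝ) : 0 ≤ ramp t δ x := by
  rw [ramp_apply]
  exact le_min zero_le_one (le_max_left _ _)

theorem ramp_le_one (t δ x : ℝ) : ramp t δ x ≤ 1 := by
  rw [ramp_apply]
  exact min_le_left _ _

theorem ramp_eq_zero {t δ x : ℝ} (hδ : 0 < δ) (h : x ≤ t) : ramp t δ x = 0 := by
  rw [ramp_apply]
  have : (x - t) / δ ≤ 0 := div_nonpos_of_nonpos_of_nonneg (by linarith) hδ.le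
  rw [max_eq_left this]
  norm_num

theorem ramp_eq_one {t δ x : ℝ} (hδ : 0 < δ) (h : t + δ ≤ x) : ramp t δ x = 1 := by
  rw [ramp_apply]
  have : 1 ≤ (x - t) / δ := by
    rw [le_div_iff₀ hδ]
    linarith
  rw [min_eq_left]
  exact le_max_of_le_right this

theorem ramp_pos {t δ x : ℝ} (hδ : 0 < δ) (h : t < x) : 0 < ramp t δ x := by
  rw [ramp_apply]
  have : 0 < (x - t) / δ := div_pos (by linarith) hδ
  exact lt_min zero_lt_one (lt_max_of_lt_right this)

variable {μ : Measure ℝ} {lam : ∀ N : ℕ, Fin N → ℝ}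

theorem Admissible.nonempty (h : Admissible μ lam) : μ.support.Nonempty := by
  have := h.prob
  exact Measure.nonempty_support (IsProbabilityMeasure.ne_zero μ)

theorem Admissible.sSup_mem (h : Admissible μ lam) : sSup μ.support ∈ μ.support :=
  h.compact_support.sSup_mem h.nonempty

theorem Admissible.ae_mem (h : Admissible μ lam) :
    ∀ᵐ x ∂μ, x ∈ Set.Icc (sInf μ.support) (sSup μ.support) := by
  have h1 : μ.support ∈ ae μ := Measure.support_mem_ae
  filter_upwards [h1] with x hx
  exact ⟨csInf_le h.compact_support.bddBelow hx, le_csSup h.compact_support.bddAbove hx⟩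

theorem Admissible.ev_le (h : Admissible μ lam) {ε : ℝ} (hε : 0 < ε) :
    ∀ᶠ N : ℕ in atTop, ∀ i : Fin N, lam N i ≤ sSup μ.support + ε := by
  have h1 : ∀ᶠ N : ℕ in atTop, (⨆ i : Fin N, lam N i) < sSup μ.support + ε :=
    h.top.eventually (gt_mem_nhds (by linarith))
  filter_upwards [h1] with N hN i
  exact (le_ciSup (Set.finite_range _).bddAbove i).trans hN.le

theorem Admissible.ev_ge (h : Admissible μ lam) {ε : ℝ} (hε : 0 < ε) :
    ∀ᶠ N : ℕ in atTop, ∀ i : Fin N, sInf μ.support - ε ≤ lam N i := by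
  have h1 : ∀ᶠ N : ℕ in atTop, sInf μ.support - ε < (⨅ i : Fin N, lam N i) :=
    h.bot.eventually (lt_mem_nhds (by linarith))
  filter_upwards [h1] with N hN i
  exact hN.le.trans (ciInf_le (Set.finite_range _).bddBelow i)

/-- all eigenvalues are eventually in a fixed interval -/
theorem Admissible.bounded (h : Admissible μ lam) : ∃ R : ℝ, 0 < R ∧
    (∀ R', R ≤ R' → ∀ᶠ N : ℕ in atTop, ∀ i : Fin N, lam N i ∈ Set.Icc (-R') R') ∧
    (∀ R', R ≤ R' → ∀ᵐ x ∂μ, x ∈ Set.Icc (-R') R') := by
  refine ⟨max |sInf μ.support| |sSup μ.support| + 1, by positivity, ?_, ?_⟩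
  · intro R' hR'
    filter_upwards [h.ev_le one_pos, h.ev_ge one_pos] with N h1 h2 i
    have h3 := le_max_left |sInf μ.support| |sSup μ.support|
    have h4 := le_max_right |sInf μ.support| |sSup μ.support|
    have h5 := neg_abs_le (sInf μ.support)
    have h6 := le_abs_self (sSup μ.support)
    exact ⟨by linarith [h2 i], by linarith [h1 i]⟩
  · intro R' hR'
    filter_upwards [h.ae_mem] with x hx
    have h3 := le_max_left |sInf μ.support| |sSup μ.support|
    have h4 := le_max_right |sInf μ.support| |sSup μ.support|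
    have h5 := neg_abs_le (sInf μ.support)
    have h6 := le_abs_self (sSup μ.support)
    exact ⟨by linarith [hx.1], by linarith [hx.2]⟩

/-- a positive proportion of the eigenvalues is close to the upper edge -/
theorem Admissible.near_top (h : Admissible μ lam) (hs : ∀ N, Antitone (lam N)) {ε : ℝ}
    (hε : 0 < ε) : ∃ s₀ : ℝ, 0 < s₀ ∧ ∀ᶠ N : ℕ in atTop, ∀ i : Fin N, ((i : ℕ) : ℝ) < s₀ * N →
      sSup μ.support - ε < lam N i := by
  have hprob := h.prob
  set b := sSup μ.support with hb
  set f := ramp (b - ε) ε with hf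
  have hint : Integrable (fun x => f x) μ := f.integrable μ
  have hpos : 0 < ∫ x, f x ∂μ := by
    rw [integral_pos_iff_support_of_nonneg (fun x => ramp_nonneg _ _ x) hint]
    have h1 : Set.Ioi (b - ε) ⊆ Function.support fun x => f x := by
      intro x hx
      exact (ramp_pos hε hx).ne'
    have h2 : 0 < μ (Set.Ioi (b - ε)) := by
      have h3 := (Measure.mem_support_iff_forall b).1 h.sSup_mem
      exact h3 _ (Ioi_mem_nhds (by linarith))
    exact lt_of_lt_of_le h2 (measure_mono h1)
  set c := ∫ x, f x ∂μ with hc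
  refine ⟨c / 2, by positivity, ?_⟩
  have h4 : ∀ᶠ N : ℕ in atTop, c / 2 < (1 / (N : ℝ)) * ∑ i : Fin N, f (lam N i) :=
    (h.weak f).eventually (lt_mem_nhds (by linarith))
  filter_upwards [h4, eventually_gt_atTop 0] with N hN hN0 i hi
  by_contra hcon
  push Not at hcon
  have hN' : (0 : ℝ) < N := by exact_mod_cast hN0
  have h5 : ∑ j : Fin N, f (lam N j) ≤ (i : ℕ) := by
    have h6 : ∀ j : Fin N, f (lam N j) ≤ if (j : ℕ) < (i : ℕ) then (1 : ℝ) else 0 := by
      intro j
      split_ifs with hji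
      · exact ramp_le_one _ _ _
      · have h7 : lam N j ≤ lam N i := hs N (Fin.le_def.2 (not_lt.1 hji))
        exact (ramp_eq_zero hε (h7.trans hcon)).le
    calc ∑ j : Fin N, f (lam N j) ≤ ∑ j : Fin N, (if (j : ℕ) < (i : ℕ) then (1 : ℝ) else 0) :=
          Finset.sum_le_sum fun j _ => h6 j
      _ = (i : ℕ) := by
          rw [Fin.sum_univ_eq_sum_range (fun j => if j < (i : ℕ) then (1 : ℝ) else 0) N,
            ← Finset.sum_filter]
          have : (Finset.range N).filter (fun j => j < (i : ℕ)) = Finset.range (i : ℕ) := by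
            ext j
            simp only [Finset.mem_range, Finset.mem_filter]
            have := i.2
            omega
          rw [this]
          simp
  have h8 : c / 2 * N < ∑ j : Fin N, f (lam N j) := by
    have := mul_lt_mul_of_pos_right hN hN'
    have h9 : (1 / (N : ℝ)) * (∑ j : Fin N, f (lam N j)) * N = ∑ j : Fin N, f (lam N j) := by
      field_simp
    linarith
  linarith

theorem psum_le_const {N : ℕ} {b : Fin N → ℝ} {k : ℕ} (hk : k ≤ N) {κ : ℝ}
    (h : ∀ i : Fin N, (i : ℕ) < k → b i ≤ κ) : psum b k ≤ κ * k := by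
  have h4 : ∑ i : Fin N, (if (i : ℕ) < k then κ else 0) = κ * k := by
    rw [Fin.sum_univ_eq_sum_range (fun i => if i < k then κ else 0) N, ← Finset.sum_filter]
    have : (Finset.range N).filter (fun i => i < k) = Finset.range k := by
      ext i
      simp only [Finset.mem_range, Finset.mem_filter]
      omega
    rw [this]
    simp [mul_comm]
  rw [← h4]
  unfold psum
  refine Finset.sum_le_sum fun i _ => ?_
  split_ifs with hi
  · exact h i hi
  · exact le_rfl

/-- weak convergence for finitely many test functions at once -/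
theorem Admissible.weak_finite (h : Admissible μ lam) (f : ℕ → BoundedContinuousFunction ℝ ℝ)
    (m : ℕ) {κ : ℝ} (hκ : 0 < κ) : ∀ᶠ N : ℕ in atTop, ∀ j ∈ Finset.range m,
      |∑ i : Fin N, f j (lam N i) - N * ∫ x, f j x ∂μ| ≤ κ * N := by
  rw [Filter.eventually_all_finset]
  intro j _
  have h1 : ∀ᶠ N : ℕ in atTop, |(1 / (N : ℝ)) * ∑ i : Fin N, f j (lam N i) - ∫ x, f j x ∂μ| < κ := by
    have := (Metric.tendsto_nhds.1 (h.weak (f j))) κ hκ
    simpa [Real.dist_eq] using this
  filter_upwards [h1, eventually_gt_atTop 0] with N hN hN0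
  have hN' : (0 : ℝ) < N := by exact_mod_cast hN0
  have h2 : ∑ i : Fin N, f j (lam N i) - N * ∫ x, f j x ∂μ
      = N * ((1 / (N : ℝ)) * ∑ i : Fin N, f j (lam N i) - ∫ x, f j x ∂μ) := by
    field_simp
  rw [h2, abs_mul, abs_of_pos hN', mul_comm]
  exact mul_le_mul_of_nonneg_right hN.le hN'.le

end Vale.Agent.P166A
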