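import Vale.Agent.P166A.Defs

/-!
# P166: the log partition function and its gradient in the eigenvalues
-/

open MeasureTheory Matrix Filter

namespace Vale.Agent.P166A

variable {N : ℕ}

/-- the squared coordinates of the rotated spin vector -/
noncomputable def wgt (O : Matrix (Fin N) (Fin N) ℝ) (s : Fin N → Bool) (i : Fin N) : ℝ :=
  ((O *ᵥ spin s) i) ^ 2

theorem wgt_nonneg (O : Matrix (Fin N) (Fin N) ℝ) (s : Fin N → Bool) (i : Fin N) :
    0 ≤ wgt O s i := sq_nonneg _

theorem spin_dot (s : Fin N → Bool) : spin s ⬝ᵥ spin s = N := by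
  have h : ∀ i : Fin N, spin s i * spin s i = 1 := by
    intro i
    unfold spin
    split_ifs <;> norm_num
  simp [dotProduct, h]

theorem sum_wgt {O : Matrix (Fin N) (Fin N) ℝ} (hO : Oᵀ * O = 1) (s : Fin N → Bool) :
    ∑ i, wgt O s i = N := by
  have h1 : ∑ i, wgt O s i = (O *ᵥ spin s) ⬝ᵥ (O *ᵥ spin s) := by
    simp [wgt, dotProduct, pow_two]
  rw [h1, dotProduct_mulVec, ← mulVec_transpose, mulVec_mulVec, hO, one_mulVec, spin_dot]

theorem quad_eq (lam : Fin N → ℝ) (O : Matrix (Fin N) (Fin N) ℝ) (s : Fin N → Bool) :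
    spin s ⬝ᵥ ((Oᵀ * Matrix.diagonal lam * O) *ᵥ spin s) = ∑ i, lam i * wgt O s i := by
  rw [← mulVec_mulVec, ← mulVec_mulVec, dotProduct_mulVec, vecMul_transpose]
  simp only [dotProduct, mulVec_diagonal, wgt]
  refine Finset.sum_congr rfl fun i _ => ?_
  ring

/-- the exponent -/
noncomputable def ex (β : ℝ) (lam : Fin N → ℝ) (O : Matrix (Fin N) (Fin N) ℝ)
    (s : Fin N → Bool) : ℝ := β / 2 * ∑ i, lam i * wgt O s i

/-- the partition function -/
noncomputable def Zf (β : ℝ) (lam : Fin N → ℝ) (O : Matrix (Fin N) (Fin N) ℝ) : ℝ :=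
  ∑ s : Fin N → Bool, Real.exp (ex β lam O s)

/-- its logarithm -/
noncomputable def Lf (β : ℝ) (lam : Fin N → ℝ) (O : Matrix (Fin N) (Fin N) ℝ) : ℝ :=
  Real.log (Zf β lam O)

/-- its gradient in the eigenvalues -/
noncomputable def gf (β : ℝ) (lam : Fin N → ℝ) (O : Matrix (Fin N) (Fin N) ℝ) (i : Fin N) : ℝ :=
  β / 2 * ∑ s : Fin N → Bool, Real.exp (ex β lam O s) / Zf β lam O * wgt O s i

theorem Zf_pos (β : ℝ) (lam : Fin N → ℝ) (O : Matrix (Fin N) (Fin N) ℝ) : 0 < Zf β lam O :=
  Finset.sum_pos (fun _ _ => Real.exp_pos _) Finset.univ_nonempty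

theorem pressure_eq (β : ℝ) (lam : Fin N → ℝ) (O : Matrix (Fin N) (Fin N) ℝ) :
    pressure N β lam O = (1 / (N : ℝ)) * (Lf β lam O - N * Real.log 2) := by
  unfold pressure Lf
  congr 1
  have h : (∑ s : Fin N → Bool,
      Real.exp (β / 2 * (spin s ⬝ᵥ ((Oᵀ * Matrix.diagonal lam * O) *ᵥ spin s)))) = Zf β lam O := by
    unfold Zf ex
    refine Finset.sum_congr rfl fun s _ => ?_
    rw [quad_eq]
  rw [h, Real.log_mul (by positivity) (Zf_pos β lam O).ne', one_div, Real.log_inv, Real.log_pow]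
  ring

theorem gf_nonneg {β : ℝ} (hβ : 0 ≤ β) (lam : Fin N → ℝ) (O : Matrix (Fin N) (Fin N) ℝ)
    (i : Fin N) : 0 ≤ gf β lam O i := by
  unfold gf
  refine mul_nonneg (by positivity) (Finset.sum_nonneg fun s _ => ?_)
  exact mul_nonneg (div_nonneg (Real.exp_pos _).le (Zf_pos β lam O).le) (wgt_nonneg O s i)

theorem sum_prob (β : ℝ) (lam : Fin N → ℝ) (O : Matrix (Fin N) (Fin N) ℝ) :
    ∑ s : Fin N → Bool, Real.exp (ex β lam O s) / Zf β lam O = 1 := by
  rw [← Finset.sum_div]
  exact div_self (Zf_pos β lam O).ne'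

theorem sum_gf (β : ℝ) (lam : Fin N → ℝ) {O : Matrix (Fin N) (Fin N) ℝ} (hO : Oᵀ * O = 1) :
    ∑ i, gf β lam O i = β * N / 2 := by
  unfold gf
  rw [← Finset.mul_sum, Finset.sum_comm]
  have h : ∀ s : Fin N → Bool, ∑ i, Real.exp (ex β lam O s) / Zf β lam O * wgt O s i
      = Real.exp (ex β lam O s) / Zf β lam O * N := by
    intro s
    rw [← Finset.mul_sum, sum_wgt hO]
  rw [Finset.sum_congr rfl fun s _ => h s, ← Finset.sum_mul, sum_prob]
  ring

/-- the convexity inequality -/
theorem Lf_ge (β : ℝ) (lam η : Fin N → ℝ) (O : Matrix (Fin N) (Fin N) ℝ) :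
    Lf β lam O + ∑ i, gf β lam O i * (η i - lam i) ≤ Lf β η O := by
  set p : (Fin N → Bool) → ℝ := fun s => Real.exp (ex β lam O s) / Zf β lam O with hp
  have hp0 : ∀ s, 0 ≤ p s := fun s => div_nonneg (Real.exp_pos _).le (Zf_pos β lam O).le
  have hp1 : ∑ s, p s = 1 := sum_prob β lam O
  set x : (Fin N → Bool) → ℝ := fun s => ex β η O s - ex β lam O s with hx
  have h1 : ∑ i, gf β lam O i * (η i - lam i) = ∑ s, p s * x s := by
    have : ∀ s, p s * x s = ∑ i, β / 2 * (p s * wgt O s i) * (η i - lam i) := by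
      intro s
      simp only [hx, ex]
      rw [← mul_sub, ← Finset.sum_sub_distrib, Finset.mul_sum, Finset.mul_sum]
      refine Finset.sum_congr rfl fun i _ => ?_
      ring
    rw [Finset.sum_congr rfl fun s _ => this s, Finset.sum_comm]
    refine Finset.sum_congr rfl fun i _ => ?_
    unfold gf
    rw [Finset.mul_sum, Finset.sum_mul]
  have h2 : Zf β η O = Zf β lam O * ∑ s, p s * Real.exp (x s) := by
    unfold Zf
    rw [Finset.mul_sum]
    refine Finset.sum_congr rfl fun s _ => ?_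
    simp only [hp, hx]
    rw [Real.exp_sub]
    have hz := (Zf_pos β lam O).ne'
    unfold Zf at hz ⊢
    field_simp
  have h3 : Real.exp (∑ s, p s * x s) ≤ ∑ s, p s * Real.exp (x s) := by
    set m := ∑ s, p s * x s with hm
    have h4 : ∀ s, p s * (1 + (x s - m)) * Real.exp m ≤ p s * Real.exp (x s) := by
      intro s
      have h5 : (1 + (x s - m)) ≤ Real.exp (x s - m) := by
        have := Real.add_one_le_exp (x s - m)
        linarith
      calc p s * (1 + (x s - m)) * Real.exp m ≤ p s * Real.exp (x s - m) * Real.exp m := by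
            gcongr
            exact hp0 s
        _ = p s * Real.exp (x s) := by
            rw [mul_assoc, ← Real.exp_add]
            congr 2
            ring
    calc Real.exp m = ∑ s, p s * (1 + (x s - m)) * Real.exp m := by
          rw [← Finset.sum_mul]
          have : ∑ s, p s * (1 + (x s - m)) = 1 := by
            have h6 : ∀ s, p s * (1 + (x s - m)) = p s + p s * x s - p s * m := fun s => by ring
            rw [Finset.sum_congr rfl fun s _ => h6 s, Finset.sum_sub_distrib,
              Finset.sum_add_distrib, ← Finset.sum_mul, hp1, ← hm]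
            ring
          rw [this, one_mul]
      _ ≤ _ := Finset.sum_le_sum fun s _ => h4 s
  have hpos : 0 < ∑ s, p s * Real.exp (x s) := lt_of_lt_of_le (Real.exp_pos _) h3
  rw [h1]
  unfold Lf
  rw [h2, Real.log_mul (Zf_pos β lam O).ne' hpos.ne']
  have := (Real.le_log_iff_exp_le hpos).2 h3
  linarith

end Vale.Agent.P166A
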