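import Vale.Agent.P166A.Asym

/-!
# P166: sorted arrays with the same limit are close; comparison in the increasing convex order
-/

open MeasureTheory Matrix Filter

namespace Vale.Agent.P166A

theorem sorted_excess {N : ℕ} {lam η : Fin N → ℝ} (hl : Antitone lam) (hη : Antitone η)
    {t δ : ℝ} (hδ : 0 < δ) :
    ∑ i : Fin N, (if t + δ < lam i ∧ η i ≤ t then (1 : ℝ) else 0) ≤
      |∑ i, ramp t δ (lam i) - ∑ i, ramp t δ (η i)| := by
  by_cases hB : ∃ i₀ : Fin N, t + δ < lam i₀ ∧ η i₀ ≤ t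
  · obtain ⟨i₀, h1, h2⟩ := hB
    refine le_trans ?_ (le_abs_self _)
    rw [← Finset.sum_sub_distrib]
    refine Finset.sum_le_sum fun i _ => ?_
    split_ifs with hi
    · rw [ramp_eq_one hδ hi.1.le, ramp_eq_zero hδ hi.2]
      norm_num
    · rcases le_total i i₀ with h3 | h3
      · have h4 : lam i₀ ≤ lam i := hl h3
        rw [ramp_eq_one hδ (h1.le.trans h4)]
        linarith [ramp_le_one t δ (η i)]
      · have h4 : η i ≤ η i₀ := hη h3
        rw [ramp_eq_zero hδ (h4.trans h2)]
        linarith [ramp_nonneg t δ (lam i)]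
  · push Not at hB
    have : ∑ i : Fin N, (if t + δ < lam i ∧ η i ≤ t then (1 : ℝ) else 0) = 0 := by
      refine Finset.sum_eq_zero fun i _ => ?_
      rw [if_neg]
      rintro ⟨h1, h2⟩
      exact absurd h2 (not_le.2 (hB i h1))
    rw [this]
    exact abs_nonneg _

theorem pos_part_le {N : ℕ} {lam η : Fin N → ℝ} (hl : Antitone lam) (hη : Antitone η)
    {R δ κ : ℝ} {m : ℕ} (hδ : 0 < δ) (hR : 0 < R) (hm : 2 * R ≤ m * δ)
    (hlR : ∀ i, lam i ∈ Set.Icc (-R) R) (hηR : ∀ i, η i ∈ Set.Icc (-R) R)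
    (h : ∀ j ∈ Finset.range m, |∑ i, ramp (-R + j * δ) δ (lam i) -
      ∑ i, ramp (-R + j * δ) δ (η i)| ≤ κ * N) :
    ∑ i, max (lam i - η i) 0 ≤ (2 * δ + 2 * R * m * κ) * N := by
  have h1 : ∀ i : Fin N, max (lam i - η i) 0 ≤ 2 * δ + 2 * R * ∑ j ∈ Finset.range m,
      (if (-R + j * δ) + δ < lam i ∧ η i ≤ (-R + j * δ) then (1 : ℝ) else 0) := by
    intro i
    have hnn : 0 ≤ ∑ j ∈ Finset.range m,
        (if (-R + j * δ) + δ < lam i ∧ η i ≤ (-R + j * δ) then (1 : ℝ) else 0) :=
      Finset.sum_nonneg fun j _ => by split_ifs <;> norm_num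
    by_cases hc : lam i - η i ≤ 2 * δ
    · have h2 : max (lam i - η i) 0 ≤ 2 * δ := max_le hc (by positivity)
      have h3 : 0 ≤ 2 * R * ∑ j ∈ Finset.range m,
        (if (-R + j * δ) + δ < lam i ∧ η i ≤ (-R + j * δ) then (1 : ℝ) else 0) := by positivity
      linarith
    · push Not at hc
      have hq : 0 ≤ (η i + R) / δ := div_nonneg (by linarith [(hηR i).1]) hδ.le
      set j := ⌈(η i + R) / δ⌉₊ with hj
      have h4 : (η i + R) / δ ≤ j := Nat.le_ceil _
      have h5 : (j : ℝ) < (η i + R) / δ + 1 := Nat.ceil_lt_add_one hq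
      have h6 : η i + R ≤ j * δ := by rwa [div_le_iff₀ hδ] at h4
      have h7 : (j : ℝ) * δ < η i + R + δ := by
        have := mul_lt_mul_of_pos_right h5 hδ
        have h8 : ((η i + R) / δ + 1) * δ = η i + R + δ := by field_simp
        linarith
      have hjm : j < m := by
        have h9 : (j : ℝ) * δ < m * δ := by linarith [(hlR i).2]
        have := lt_of_mul_lt_mul_right h9 hδ.le
        exact_mod_cast this
      have h10 : (1 : ℝ) ≤ ∑ j ∈ Finset.range m,
          (if (-R + j * δ) + δ < lam i ∧ η i ≤ (-R + j * δ) then (1 : ℝ) else 0) := by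
        have h11 := Finset.single_le_sum (f := fun j : ℕ =>
          (if (-R + j * δ) + δ < lam i ∧ η i ≤ (-R + j * δ) then (1 : ℝ) else 0))
          (s := Finset.range m) (fun j _ => by positivity) (Finset.mem_range.2 hjm)
        have h12 : (-R + (j : ℝ) * δ) + δ < lam i ∧ η i ≤ (-R + (j : ℝ) * δ) :=
          ⟨by linarith, by linarith⟩
        simp only [h12, and_self, if_true] at h11
        exact h11
      have h13 : max (lam i - η i) 0 ≤ 2 * R :=
        max_le (by linarith [(hlR i).2, (hηR i).1]) (by positivity)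
      have h14 : 2 * R ≤ 2 * R * ∑ j ∈ Finset.range m,
          (if (-R + j * δ) + δ < lam i ∧ η i ≤ (-R + j * δ) then (1 : ℝ) else 0) := by
        have := mul_le_mul_of_nonneg_left h10 (by positivity : 0 ≤ 2 * R)
        linarith
      linarith
  calc ∑ i, max (lam i - η i) 0 ≤ ∑ i : Fin N, (2 * δ + 2 * R * ∑ j ∈ Finset.range m,
        (if (-R + j * δ) + δ < lam i ∧ η i ≤ (-R + j * δ) then (1 : ℝ) else 0)) :=
        Finset.sum_le_sum fun i _ => h1 i
    _ = 2 * δ * N + 2 * R * ∑ j ∈ Finset.range m, ∑ i : Fin N,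
        (if (-R + j * δ) + δ < lam i ∧ η i ≤ (-R + j * δ) then (1 : ℝ) else 0) := by
        have e1 : ∑ _i : Fin N, (2 * δ) = 2 * δ * N := by
          rw [Finset.sum_const, Finset.card_univ, Fintype.card_fin, nsmul_eq_mul]
          ring
        have e2 : ∑ i : Fin N, 2 * R * (∑ j ∈ Finset.range m,
            (if (-R + j * δ) + δ < lam i ∧ η i ≤ (-R + j * δ) then (1 : ℝ) else 0))
            = 2 * R * ∑ j ∈ Finset.range m, ∑ i : Fin N,
            (if (-R + j * δ) + δ < lam i ∧ η i ≤ (-R + j * δ) then (1 : ℝ) else 0) := by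
          rw [← Finset.mul_sum, Finset.sum_comm]
        rw [Finset.sum_add_distrib, e1, e2]
    _ ≤ 2 * δ * N + 2 * R * ∑ j ∈ Finset.range m, κ * N := by
        have : ∑ j ∈ Finset.range m, ∑ i : Fin N,
            (if (-R + j * δ) + δ < lam i ∧ η i ≤ (-R + j * δ) then (1 : ℝ) else 0) ≤
            ∑ j ∈ Finset.range m, κ * N :=
          Finset.sum_le_sum fun j hj => (sorted_excess hl hη hδ).trans (h j hj)
        have := mul_le_mul_of_nonneg_left this (by positivity : 0 ≤ 2 * R)
        linarith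
    _ = (2 * δ + 2 * R * m * κ) * N := by
        rw [Finset.sum_const, Finset.card_range, nsmul_eq_mul]
        ring

variable {μ μ' : Measure ℝ} {lam η : ∀ N : ℕ, Fin N → ℝ}

/-- sorted arrays with the same limit are close on average -/
theorem W1_close (h : Admissible μ lam) (h' : Admissible μ η) (hl : ∀ N, Antitone (lam N))
    (hη : ∀ N, Antitone (η N)) {κ : ℝ} (hκ : 0 < κ) :
    ∀ᶠ N : ℕ in atTop, ∑ i, |lam N i - η N i| ≤ κ * N := by
  obtain ⟨R₁, hR₁, hb₁, -⟩ := h.bounded
  obtain ⟨R₂, hR₂, hb₂, -⟩ := h'.bounded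
  set R := max R₁ R₂ with hR
  have hR0 : 0 < R := lt_max_of_lt_left hR₁
  set δ := κ / 8 with hδ
  have hδ0 : 0 < δ := by positivity
  set m := ⌈2 * R / δ⌉₊ with hm
  have hm1 : 2 * R ≤ m * δ := by
    have := Nat.le_ceil (2 * R / δ)
    rwa [div_le_iff₀ hδ0] at this
  set κ' := κ / (8 * R * (m + 1)) with hκ'
  have hκ'0 : 0 < κ' := by positivity
  have hκm : 2 * R * m * κ' ≤ κ / 4 := by
    have h1 : 2 * R * m * κ' = κ / 4 * (m / (m + 1)) := by
      rw [hκ']
      field_simp
      ring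
    have h2 : (m : ℝ) / (m + 1) ≤ 1 := by
      rw [div_le_one (by positivity)]
      linarith
    rw [h1]
    have := mul_le_mul_of_nonneg_left h2 (by positivity : 0 ≤ κ / 4)
    linarith
  filter_upwards [hb₁ R (le_max_left _ _), hb₂ R (le_max_right _ _),
    h.weak_finite (fun j => ramp (-R + j * δ) δ) m (half_pos hκ'0),
    h'.weak_finite (fun j => ramp (-R + j * δ) δ) m (half_pos hκ'0)] with N h1 h2 h3 h4
  have h5 : ∀ j ∈ Finset.range m, |∑ i, ramp (-R + j * δ) δ (lam N i) -
      ∑ i, ramp (-R + j * δ) δ (η N i)| ≤ κ' * N := by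
    intro j hj
    have h6 := abs_le.1 (h3 j hj)
    have h7 := abs_le.1 (h4 j hj)
    rw [abs_le]
    constructor <;> linarith [h6.1, h6.2, h7.1, h7.2]
  have h5' : ∀ j ∈ Finset.range m, |∑ i, ramp (-R + j * δ) δ (η N i) -
      ∑ i, ramp (-R + j * δ) δ (lam N i)| ≤ κ' * N := by
    intro j hj
    rw [abs_sub_comm]
    exact h5 j hj
  have h8 := pos_part_le (hl N) (hη N) hδ0 hR0 hm1 h1 h2 h5
  have h9 := pos_part_le (hη N) (hl N) hδ0 hR0 hm1 h2 h1 h5'
  have h10 : ∑ i, |lam N i - η N i| = ∑ i, max (lam N i - η N i) 0 +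
      ∑ i, max (η N i - lam N i) 0 := by
    rw [← Finset.sum_add_distrib]
    refine Finset.sum_congr rfl fun i _ => ?_
    rcases le_total (lam N i) (η N i) with h11 | h11
    · rw [abs_of_nonpos (by linarith), max_eq_right (by linarith), max_eq_left (by linarith)]
      ring
    · rw [abs_of_nonneg (by linarith), max_eq_left (by linarith), max_eq_right (by linarith)]
      ring
  have hN : (0 : ℝ) ≤ N := Nat.cast_nonneg N
  have h12 : (2 * δ + 2 * R * m * κ') * N ≤ κ / 2 * N := by
    refine mul_le_mul_of_nonneg_right ?_ hN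
    rw [hδ]
    linarith
  rw [h10]
  linarith

theorem psum_le_sum {N : ℕ} {b : Fin N → ℝ} (hb : ∀ i, 0 ≤ b i) (k : ℕ) :
    psum b k ≤ ∑ i, b i := by
  unfold psum
  refine Finset.sum_le_sum fun i _ => ?_
  split_ifs
  · exact le_rfl
  · exact hb i

theorem psum_abs (h : Admissible μ lam) (h' : Admissible μ η) (hl : ∀ N, Antitone (lam N))
    (hη : ∀ N, Antitone (η N)) {κ : ℝ} (hκ : 0 < κ) :
    ∀ᶠ N : ℕ in atTop, ∀ k, k ≤ N → psum (fun i => |lam N i - η N i|) k ≤ κ * k := by
  obtain ⟨s₁, hs₁, h1⟩ := h.near_top hl (half_pos hκ)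
  obtain ⟨s₂, hs₂, h2⟩ := h'.near_top hη (half_pos hκ)
  set s := min s₁ s₂ with hs
  have hs0 : 0 < s := lt_min hs₁ hs₂
  filter_upwards [h1, h2, h.ev_le (half_pos hκ), h'.ev_le (half_pos hκ),
    W1_close h h' hl hη (mul_pos hκ hs0)] with N h1 h2 h3 h4 h5 k hk
  have hN : (0 : ℝ) ≤ N := Nat.cast_nonneg N
  rcases le_or_gt (k : ℝ) (s * N) with hks | hks
  · refine psum_le_const hk fun i hi => ?_
    have hi' : ((i : ℕ) : ℝ) < s * N := by
      have : ((i : ℕ) : ℝ) < k := by exact_mod_cast hi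
      linarith
    have h6 : s * N ≤ s₁ * N := mul_le_mul_of_nonneg_right (min_le_left _ _) hN
    have h7 : s * N ≤ s₂ * N := mul_le_mul_of_nonneg_right (min_le_right _ _) hN
    have h8 := h1 i (by linarith)
    have h9 := h2 i (by linarith)
    rw [abs_le]
    constructor <;> linarith [h3 i, h4 i]
  · have h6 := psum_le_sum (b := fun i => |lam N i - η N i|) (fun i => abs_nonneg _) k
    have h7 : κ * s * N ≤ κ * k := by
      rw [mul_assoc]
      exact mul_le_mul_of_nonneg_left hks.le hκ.le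
    linarith

/-- truncated positive part -/
noncomputable def trunc (R t : ℝ) : BoundedContinuousFunction ℝ ℝ :=
  BoundedContinuousFunction.ofNormedAddCommGroup (fun x => min (2 * |R|) (max (x - t) 0))
    (by fun_prop) (2 * |R|) (fun x => by
      rw [Real.norm_eq_abs, abs_le]
      constructor
      · have h1 : 0 ≤ min (2 * |R|) (max (x - t) 0) := le_min (by positivity) (le_max_right _ _)
        have h2 : 0 ≤ 2 * |R| := by positivity
        linarith
      · exact min_le_left _ _)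

theorem trunc_apply (R t x : ℝ) : trunc R t x = min (2 * |R|) (max (x - t) 0) := rfl

theorem trunc_eq {R t x : ℝ} (hR : 0 < R) (ht : -R ≤ t) (hx : x ≤ R) :
    trunc R t x = max (x - t) 0 := by
  rw [trunc_apply, min_eq_right]
  rw [abs_of_pos hR]
  exact max_le (by linarith) (by positivity)

theorem F_close (h : Admissible μ lam) (h' : Admissible μ' η)
    (hicx : ∀ t : ℝ, ∫ x, max (x - t) 0 ∂μ ≤ ∫ x, max (x - t) 0 ∂μ') {κ : ℝ} (hκ : 0 < κ) :
    ∀ᶠ N : ℕ in atTop, ∀ i₀ : Fin N, ∑ i, max (lam N i - η N i₀) 0 ≤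
      ∑ i, max (η N i - η N i₀) 0 + κ * N := by
  obtain ⟨R₁, hR₁, hb₁, ha₁⟩ := h.bounded
  obtain ⟨R₂, hR₂, hb₂, ha₂⟩ := h'.bounded
  set R := max R₁ R₂ with hR
  have hR0 : 0 < R := lt_max_of_lt_left hR₁
  set δ := κ / 4 with hδ
  have hδ0 : 0 < δ := by positivity
  set m := ⌊2 * R / δ⌋₊ + 1 with hm
  have hint : ∀ j : ℕ, ∫ x, trunc R (-R + j * δ) x ∂μ ≤ ∫ x, trunc R (-R + j * δ) x ∂μ' := by
    intro j
    have h1 : ∫ x, trunc R (-R + j * δ) x ∂μ = ∫ x, max (x - (-R + j * δ)) 0 ∂μ := by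
      refine integral_congr_ae ?_
      filter_upwards [ha₁ R (le_max_left _ _)] with x hx
      exact trunc_eq hR0 (by have : 0 ≤ (j : ℝ) * δ := by positivity
                             linarith) hx.2
    have h2 : ∫ x, trunc R (-R + j * δ) x ∂μ' = ∫ x, max (x - (-R + j * δ)) 0 ∂μ' := by
      refine integral_congr_ae ?_
      filter_upwards [ha₂ R (le_max_right _ _)] with x hx
      exact trunc_eq hR0 (by have : 0 ≤ (j : ℝ) * δ := by positivity
                             linarith) hx.2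
    rw [h1, h2]
    exact hicx _
  filter_upwards [hb₁ R (le_max_left _ _), hb₂ R (le_max_right _ _),
    h.weak_finite (fun j => trunc R (-R + j * δ)) m hδ0,
    h'.weak_finite (fun j => trunc R (-R + j * δ)) m hδ0] with N h1 h2 h3 h4 i₀
  set t := η N i₀ with ht
  have ht1 := h2 i₀
  rw [← ht] at ht1
  have hN : (0 : ℝ) ≤ N := Nat.cast_nonneg N
  have hq : 0 ≤ (t + R) / δ := div_nonneg (by linarith [ht1.1]) hδ0.le
  set j := ⌊(t + R) / δ⌋₊ with hj
  have h5 : (j : ℝ) ≤ (t + R) / δ := Nat.floor_le hq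
  have h6 : (t + R) / δ < j + 1 := Nat.lt_floor_add_one _
  have h7 : (j : ℝ) * δ ≤ t + R := by rwa [le_div_iff₀ hδ0] at h5
  have h8 : t + R < j * δ + δ := by
    rw [div_lt_iff₀ hδ0] at h6
    linarith
  have hjm : j < m := by
    rw [hm, Nat.lt_succ_iff]
    refine Nat.floor_le_floor ?_
    gcongr
    linarith [ht1.2]
  set tj := -R + (j : ℝ) * δ with htj
  have htjR : -R ≤ tj := by
    have : 0 ≤ (j : ℝ) * δ := by positivity
    rw [htj]
    linarith
  have h9 : ∑ i, trunc R tj (lam N i) = ∑ i, max (lam N i - tj) 0 :=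
    Finset.sum_congr rfl fun i _ => trunc_eq hR0 htjR (h1 i).2
  have h10 : ∑ i, trunc R tj (η N i) = ∑ i, max (η N i - tj) 0 :=
    Finset.sum_congr rfl fun i _ => trunc_eq hR0 htjR (h2 i).2
  have h11 := (abs_le.1 (h3 j (Finset.mem_range.2 hjm))).2
  have h12 := (abs_le.1 (h4 j (Finset.mem_range.2 hjm))).1
  rw [← htj, h9] at h11
  rw [← htj, h10] at h12
  have h13 : (N : ℝ) * ∫ x, trunc R tj x ∂μ ≤ N * ∫ x, trunc R tj x ∂μ' :=
    mul_le_mul_of_nonneg_left (hint j) hN
  have h14 : ∑ i, max (lam N i - t) 0 ≤ ∑ i, max (lam N i - tj) 0 := by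
    refine Finset.sum_le_sum fun i _ => ?_
    exact max_le_max (by rw [htj]; linarith) le_rfl
  have h15 : ∑ i, max (η N i - tj) 0 ≤ ∑ i, max (η N i - t) 0 + δ * N := by
    have h16 : ∀ i, max (η N i - tj) 0 ≤ max (η N i - t) 0 + δ := by
      intro i
      refine max_le ?_ ?_
      · have := le_max_left (η N i - t) 0
        rw [htj]
        linarith
      · have := le_max_right (η N i - t) 0
        linarith
    calc ∑ i, max (η N i - tj) 0 ≤ ∑ i, (max (η N i - t) 0 + δ) :=
          Finset.sum_le_sum fun i _ => h16 i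
      _ = ∑ i, max (η N i - t) 0 + δ * N := by
          rw [Finset.sum_add_distrib]
          simp [mul_comm]
  have h17 : δ * N + δ * N + δ * N ≤ κ * N := by
    rw [hδ]
    nlinarith
  linarith

theorem edge_le (h : Admissible μ lam) (h' : Admissible μ' η)
    (hicx : ∀ t : ℝ, ∫ x, max (x - t) 0 ∂μ ≤ ∫ x, max (x - t) 0 ∂μ') :
    sSup μ.support ≤ sSup μ'.support := by
  have hprob := h.prob
  by_contra hcon
  push Not at hcon
  set b' := sSup μ'.support with hb'
  have h1 : ∫ x, max (x - b') 0 ∂μ' = 0 := by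
    have : ∀ᵐ x ∂μ', max (x - b') 0 = 0 := by
      filter_upwards [h'.ae_mem] with x hx
      exact max_eq_right (by linarith [hx.2])
    rw [integral_congr_ae this]
    simp
  have h2 : ∫ x, max (x - b') 0 ∂μ ≤ 0 := by
    have := hicx b'
    rwa [h1] at this
  have hnn : ∀ x : ℝ, 0 ≤ max (x - b') 0 := fun x => le_max_right _ _
  have hint : Integrable (fun x : ℝ => max (x - b') 0) μ := by
    obtain ⟨R, hR, -, ha⟩ := h.bounded
    refine Integrable.of_bound (C := R + |b'|) ?_ ?_
    · exact (by fun_prop : Continuous fun x : ℝ => max (x - b') 0).aestronglyMeasurable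
    · filter_upwards [ha R le_rfl] with x hx
      rw [Real.norm_eq_abs, abs_of_nonneg (hnn x)]
      refine max_le ?_ (by positivity)
      have := neg_abs_le b'
      linarith [hx.2]
  have h3 : 0 < ∫ x, max (x - b') 0 ∂μ := by
    rw [integral_pos_iff_support_of_nonneg hnn hint]
    have h4 : Set.Ioi b' ⊆ Function.support fun x : ℝ => max (x - b') 0 := by
      intro x hx
      have hx' : b' < x := hx
      have : 0 < max (x - b') 0 := lt_max_of_lt_left (by linarith)
      exact this.ne'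
    have h5 : 0 < μ (Set.Ioi b') :=
      (Measure.mem_support_iff_forall _).1 h.sSup_mem _ (Ioi_mem_nhds hcon)
    exact lt_of_lt_of_le h5 (measure_mono h4)
  linarith

theorem psum_icx (h : Admissible μ lam) (h' : Admissible μ' η)
    (hη : ∀ N, Antitone (η N))
    (hicx : ∀ t : ℝ, ∫ x, max (x - t) 0 ∂μ ≤ ∫ x, max (x - t) 0 ∂μ') {κ : ℝ} (hκ : 0 < κ) :
    ∀ᶠ N : ℕ in atTop, ∀ k, k ≤ N → psum (fun i => lam N i - η N i) k ≤ κ * k := by
  obtain ⟨s, hs0, h2⟩ := h'.near_top hη (half_pos hκ)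
  have hedge := edge_le h h' hicx
  filter_upwards [h2, h.ev_le (half_pos hκ), F_close h h' hicx (mul_pos hκ hs0),
    eventually_gt_atTop 0] with N h2 h3 h5 hN0 k hk
  have hN : (0 : ℝ) < N := by exact_mod_cast hN0
  rcases le_or_gt (k : ℝ) (s * N) with hks | hks
  · refine psum_le_const hk fun i hi => ?_
    have hi' : ((i : ℕ) : ℝ) < s * N := by
      have : ((i : ℕ) : ℝ) < k := by exact_mod_cast hi
      linarith
    have h8 := h2 i hi'
    linarith [h3 i]
  · have hk0 : 0 < k := by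
      have : (0 : ℝ) < k := lt_trans (mul_pos hs0 hN) hks
      exact_mod_cast this
    set i₀ : Fin N := ⟨k - 1, by omega⟩ with hi₀
    have h6 := h5 i₀
    have h7 : psum (fun i => lam N i - η N i) k ≤ ∑ i, max (lam N i - η N i₀) 0 -
        ∑ i, max (η N i - η N i₀) 0 := by
      unfold psum
      rw [← Finset.sum_sub_distrib]
      refine Finset.sum_le_sum fun i _ => ?_
      split_ifs with hik
      · have h8 : η N i₀ ≤ η N i := hη N (Fin.le_def.2 (by rw [hi₀]; simp only []; omega))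
        rw [max_eq_left (by linarith : (0 : ℝ) ≤ η N i - η N i₀)]
        have := le_max_left (lam N i - η N i₀) 0
        linarith
      · have h8 : η N i ≤ η N i₀ := hη N (Fin.le_def.2 (by rw [hi₀]; simp only []; omega))
        rw [max_eq_right (by linarith : η N i - η N i₀ ≤ 0)]
        have := le_max_right (lam N i - η N i₀) 0
        linarith
    have h9 : κ * s * N ≤ κ * k := by
      rw [mul_assoc]
      exact mul_le_mul_of_nonneg_left hks.le hκ.le
    linarith

end Vale.Agent.P166A
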