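import Vale.Agent.P166A.Haar

/-!
# P166: comparison of the expected pressures of two arrays of eigenvalues
-/

open MeasureTheory Matrix Filter

namespace Vale.Agent.P166A

theorem abel_nonpos (n : ℕ) : ∀ (G b : ℕ → ℝ), (∀ i j, i ≤ j → j < n → G j ≤ G i) →
    (∀ i, i < n → 0 ≤ G i) → (∀ k, k ≤ n → ∑ i ∈ Finset.range k, b i ≤ 0) →
    ∑ i ∈ Finset.range n, G i * b i ≤ 0 := by
  induction n with
  | zero => intro G b _ _ _; simp
  | succ n ih =>
    intro G b hG h0 hb
    have h1 := ih (fun i => G i - G n) b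
      (fun i j hij hj => by
        have := hG i j hij (by omega)
        simpa using this)
      (fun i hi => by
        have := hG i n hi.le (Nat.lt_succ_self n)
        simpa using this)
      (fun k hk => hb k (by omega))
    have h2 : ∑ i ∈ Finset.range (n + 1), G i * b i
        = ∑ i ∈ Finset.range n, (G i - G n) * b i + G n * ∑ i ∈ Finset.range (n + 1), b i := by
      rw [Finset.sum_range_succ, Finset.sum_range_succ, mul_add, Finset.mul_sum, ← add_assoc,
        ← Finset.sum_add_distrib]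
      congr 1
      refine Finset.sum_congr rfl fun i _ => ?_
      ring
    rw [h2]
    have h3 : G n * ∑ i ∈ Finset.range (n + 1), b i ≤ 0 :=
      mul_nonpos_of_nonneg_of_nonpos (h0 n (Nat.lt_succ_self n)) (hb (n + 1) le_rfl)
    linarith

/-- partial sums of a function on `Fin N` -/
noncomputable def psum {N : ℕ} (b : Fin N → ℝ) (k : ℕ) : ℝ :=
  ∑ i : Fin N, if (i : ℕ) < k then b i else 0

theorem wsum_le {N : ℕ} (G b : Fin N → ℝ) (hG : Antitone G) (h0 : ∀ i, 0 ≤ G i) (κ : ℝ)
    (hb : ∀ k, k ≤ N → psum b k ≤ κ * k) : ∑ i, G i * b i ≤ κ * ∑ i, G i := by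
  set G' : ℕ → ℝ := fun n => if h : n < N then G ⟨n, h⟩ else 0 with hG'
  set b' : ℕ → ℝ := fun n => if h : n < N then b ⟨n, h⟩ - κ else 0 with hb'
  have h1 : ∑ i ∈ Finset.range N, G' i * b' i ≤ 0 := by
    refine abel_nonpos N G' b' ?_ ?_ ?_
    · intro i j hij hj
      have hi : i < N := lt_of_le_of_lt hij hj
      simp only [hG', hi, hj, dif_pos]
      exact hG (Fin.mk_le_mk.2 hij)
    · intro i hi
      simp only [hG', hi, dif_pos]
      exact h0 _
    · intro k hk
      have h2 : ∑ i ∈ Finset.range k, b' i = ∑ i ∈ Finset.range N, if i < k then b' i else 0 := by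
        rw [← Finset.sum_filter]
        refine Finset.sum_congr ?_ fun _ _ => rfl
        ext i
        simp only [Finset.mem_range, Finset.mem_filter]
        omega
      rw [h2, ← Fin.sum_univ_eq_sum_range (fun i => if i < k then b' i else 0) N]
      have h3 : ∑ i : Fin N, (if (i : ℕ) < k then b' i else 0)
          = psum b k - ∑ i : Fin N, if (i : ℕ) < k then κ else 0 := by
        unfold psum
        rw [← Finset.sum_sub_distrib]
        refine Finset.sum_congr rfl fun i _ => ?_
        split_ifs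
        · simp [hb']
        · simp
      have h4 : ∑ i : Fin N, (if (i : ℕ) < k then κ else 0) = κ * k := by
        rw [Fin.sum_univ_eq_sum_range (fun i => if i < k then κ else 0) N, ← Finset.sum_filter]
        have : (Finset.range N).filter (fun i => i < k) = Finset.range k := by
          ext i
          simp only [Finset.mem_range, Finset.mem_filter]
          omega
        rw [this]
        simp [mul_comm]
      rw [h3, h4]
      linarith [hb k hk]
  have h5 : ∑ i ∈ Finset.range N, G' i * b' i = ∑ i : Fin N, G i * (b i - κ) := by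
    rw [← Fin.sum_univ_eq_sum_range (fun i => G' i * b' i) N]
    refine Finset.sum_congr rfl fun i _ => ?_
    simp [hG', hb']
  rw [h5] at h1
  have h6 : ∑ i : Fin N, G i * (b i - κ) = ∑ i, G i * b i - κ * ∑ i, G i := by
    rw [Finset.mul_sum, ← Finset.sum_sub_distrib]
    refine Finset.sum_congr rfl fun i _ => ?_
    ring
  linarith

variable {N : ℕ}

theorem Gf_antitone (β : ℝ) {lam : Fin N → ℝ} (hl : Antitone lam) : Antitone (Gf N β lam) :=
  fun _ _ hij => Gf_mono β lam (hl hij)

/-- the comparison inequality -/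
theorem Phi_le {β : ℝ} (hβ : 0 ≤ β) {lam η : Fin N → ℝ} (hl : Antitone lam) {κ : ℝ}
    (h : ∀ k, k ≤ N → psum (fun i => lam i - η i) k ≤ κ * k) :
    Phi N β lam ≤ Phi N β η + κ * (β * N / 2) := by
  have h1 := Phi_ge β lam η
  have h2 := wsum_le (Gf N β lam) (fun i => lam i - η i) (Gf_antitone β hl)
    (Gf_nonneg hβ lam) κ h
  rw [sum_Gf] at h2
  have h3 : ∑ i, Gf N β lam i * (η i - lam i) = - ∑ i, Gf N β lam i * (lam i - η i) := by
    rw [← Finset.sum_neg_distrib]
    refine Finset.sum_congr rfl fun i _ => ?_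
    ring
  linarith

theorem abs_Lf_le {β : ℝ} (hβ : 0 ≤ β) (lam η : Fin N → ℝ) (O : Matrix (Fin N) (Fin N) ℝ) :
    |Lf β lam O - Lf β η O| ≤ ∑ i, gf β lam O i * |lam i - η i| +
      ∑ i, gf β η O i * |lam i - η i| := by
  have h1 := Lf_ge β lam η O
  have h2 := Lf_ge β η lam O
  have h3 : - ∑ i, gf β lam O i * (η i - lam i) ≤ ∑ i, gf β lam O i * |lam i - η i| := by
    rw [← Finset.sum_neg_distrib]
    refine Finset.sum_le_sum fun i _ => ?_
    have : -(gf β lam O i * (η i - lam i)) = gf β lam O i * (lam i - η i) := by ring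
    rw [this]
    exact mul_le_mul_of_nonneg_left (le_abs_self _) (gf_nonneg hβ lam O i)
  have h4 : - ∑ i, gf β η O i * (lam i - η i) ≤ ∑ i, gf β η O i * |lam i - η i| := by
    rw [← Finset.sum_neg_distrib]
    refine Finset.sum_le_sum fun i _ => ?_
    have : -(gf β η O i * (lam i - η i)) = gf β η O i * (-(lam i - η i)) := by ring
    rw [this]
    exact mul_le_mul_of_nonneg_left (neg_le_abs _) (gf_nonneg hβ η O i)
  have h5 : 0 ≤ ∑ i, gf β lam O i * |lam i - η i| :=
    Finset.sum_nonneg fun i _ => mul_nonneg (gf_nonneg hβ lam O i) (abs_nonneg _)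
  have h6 : 0 ≤ ∑ i, gf β η O i * |lam i - η i| :=
    Finset.sum_nonneg fun i _ => mul_nonneg (gf_nonneg hβ η O i) (abs_nonneg _)
  rw [abs_le]
  constructor <;> linarith

theorem integral_gf_mul (β : ℝ) (lam b : Fin N → ℝ) :
    ∫ O : Matrix.orthogonalGroup (Fin N) ℝ, ∑ i, gf β lam (O : Matrix (Fin N) (Fin N) ℝ) i * b i
      ∂(haarO N) = ∑ i, Gf N β lam i * b i := by
  rw [integral_finsetSum _ fun i _ => (integrable_of_cont (cont_gf β lam i)).mul_const (b i)]
  refine Finset.sum_congr rfl fun i _ => ?_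
  rw [integral_mul_const]
  rfl

theorem L1_le {β : ℝ} (hβ : 0 ≤ β) {lam η : Fin N → ℝ} (hl : Antitone lam) (hη : Antitone η)
    {κ : ℝ} (h : ∀ k, k ≤ N → psum (fun i => |lam i - η i|) k ≤ κ * k) :
    ∫ O : Matrix.orthogonalGroup (Fin N) ℝ, |Lf β lam (O : Matrix (Fin N) (Fin N) ℝ) -
      Lf β η (O : Matrix (Fin N) (Fin N) ℝ)| ∂(haarO N) ≤ κ * (β * N) := by
  have hi : ∀ (l b : Fin N → ℝ), Integrable (fun O : Matrix.orthogonalGroup (Fin N) ℝ =>
      ∑ i, gf β l (O : Matrix (Fin N) (Fin N) ℝ) i * b i) (haarO N) := fun l b =>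
    integrable_finsetSum _ fun i _ => (integrable_of_cont (cont_gf β l i)).mul_const (b i)
  have h1 : ∫ O : Matrix.orthogonalGroup (Fin N) ℝ, |Lf β lam (O : Matrix (Fin N) (Fin N) ℝ) -
      Lf β η (O : Matrix (Fin N) (Fin N) ℝ)| ∂(haarO N) ≤
      ∫ O : Matrix.orthogonalGroup (Fin N) ℝ,
        (∑ i, gf β lam (O : Matrix (Fin N) (Fin N) ℝ) i * |lam i - η i| +
        ∑ i, gf β η (O : Matrix (Fin N) (Fin N) ℝ) i * |lam i - η i|) ∂(haarO N) := by
    refine integral_mono ?_ ((hi lam fun i => |lam i - η i|).add (hi η fun i => |lam i - η i|)) ?_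
    · exact integrable_of_cont ((cont_Lf β lam).sub (cont_Lf β η)).abs
    · exact fun O => abs_Lf_le hβ lam η O
  rw [integral_add (hi lam fun i => |lam i - η i|) (hi η fun i => |lam i - η i|),
    integral_gf_mul β lam fun i => |lam i - η i|, integral_gf_mul β η fun i => |lam i - η i|] at h1
  have h2 := wsum_le (Gf N β lam) (fun i => |lam i - η i|) (Gf_antitone β hl)
    (Gf_nonneg hβ lam) κ h
  have h3 := wsum_le (Gf N β η) (fun i => |lam i - η i|) (Gf_antitone β hη)
    (Gf_nonneg hβ η) κ h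
  rw [sum_Gf] at h2 h3
  linarith

theorem cont_pressure (β : ℝ) (lam : Fin N → ℝ) :
    Continuous fun O : Matrix.orthogonalGroup (Fin N) ℝ =>
      pressure N β lam (O : Matrix (Fin N) (Fin N) ℝ) := by
  simp only [pressure_eq]
  exact continuous_const.mul ((cont_Lf β lam).sub continuous_const)

theorem expectedPressure_eq (β : ℝ) (lam : Fin N → ℝ) :
    expectedPressure N β lam = (1 / (N : ℝ)) * (Phi N β lam - N * Real.log 2) := by
  unfold expectedPressure Phi
  simp only [pressure_eq]
  rw [integral_const_mul, integral_sub (integrable_of_cont (cont_Lf β lam)) (integrable_const _)]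
  simp

theorem expectedPressure_perm (β : ℝ) (lam : Fin N → ℝ) (σ : Equiv.Perm (Fin N)) :
    expectedPressure N β (lam ∘ σ) = expectedPressure N β lam := by
  rw [expectedPressure_eq, expectedPressure_eq, Phi_perm]

theorem expectedPressure_le (hN : 0 < N) {β : ℝ} (hβ : 0 ≤ β) {lam η : Fin N → ℝ}
    (hl : Antitone lam) {κ : ℝ}
    (h : ∀ k, k ≤ N → psum (fun i => lam i - η i) k ≤ κ * k) :
    expectedPressure N β lam ≤ expectedPressure N β η + κ * β / 2 := by
  have h1 := Phi_le hβ hl h
  have hN' : (0 : ℝ) < N := by exact_mod_cast hN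
  rw [expectedPressure_eq, expectedPressure_eq]
  have h2 : (1 / (N : ℝ)) * (Phi N β lam - N * Real.log 2) ≤
      (1 / (N : ℝ)) * (Phi N β η + κ * (β * N / 2) - N * Real.log 2) := by
    refine mul_le_mul_of_nonneg_left ?_ (by positivity)
    linarith
  have h3 : (1 / (N : ℝ)) * (Phi N β η + κ * (β * N / 2) - N * Real.log 2)
      = (1 / (N : ℝ)) * (Phi N β η - N * Real.log 2) + κ * β / 2 := by
    field_simp
    ring
  linarith

theorem pressure_L1_le (hN : 0 < N) {β : ℝ} (hβ : 0 ≤ β) {lam η : Fin N → ℝ}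
    (hl : Antitone lam) (hη : Antitone η)
    {κ : ℝ} (h : ∀ k, k ≤ N → psum (fun i => |lam i - η i|) k ≤ κ * k) :
    ∫ O : Matrix.orthogonalGroup (Fin N) ℝ, |pressure N β lam (O : Matrix (Fin N) (Fin N) ℝ) -
      pressure N β η (O : Matrix (Fin N) (Fin N) ℝ)| ∂(haarO N) ≤ κ * β := by
  have h1 := L1_le hβ hl hη h
  have hN' : (0 : ℝ) < N := by exact_mod_cast hN
  have h2 : ∀ O : Matrix (Fin N) (Fin N) ℝ, |pressure N β lam O - pressure N β η O|
      = (1 / (N : ℝ)) * |Lf β lam O - Lf β η O| := by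
    intro O
    rw [pressure_eq, pressure_eq, ← mul_sub, abs_mul, abs_of_pos (by positivity : 0 < 1 / (N : ℝ))]
    congr 2
    ring
  simp only [h2]
  rw [integral_const_mul]
  calc (1 / (N : ℝ)) * ∫ O : Matrix.orthogonalGroup (Fin N) ℝ,
        |Lf β lam (O : Matrix (Fin N) (Fin N) ℝ) - Lf β η (O : Matrix (Fin N) (Fin N) ℝ)| ∂(haarO N)
      ≤ (1 / (N : ℝ)) * (κ * (β * N)) := mul_le_mul_of_nonneg_left h1 (by positivity)
    _ = κ * β := by
        field_simp

end Vale.Agent.P166A
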