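import Mathlib

/-!
# P166: orthogonally invariant Ising spin glasses, definitions
-/

open MeasureTheory Matrix Filter

namespace Vale.Agent.P166A

/-- the spin configuration coded by `s`, a vector with entries `1` and `-1` -/
def spin {N : ℕ} (s : Fin N → Bool) : Fin N → ℝ := fun i => if s i then 1 else -1

/-- the pressure `P_N(β)` of the coupling matrix `J = Oᵀ Λ O`, `Λ = diag(lam)` -/
noncomputable def pressure (N : ℕ) (β : ℝ) (lam : Fin N → ℝ) (O : Matrix (Fin N) (Fin N) ℝ) : ℝ :=
  (1 / (N : ℝ)) * Real.log ((1 / 2 ^ N) * ∑ s : Fin N → Bool,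
    Real.exp (β / 2 * (spin s ⬝ᵥ ((Oᵀ * Matrix.diagonal lam * O) *ᵥ spin s))))

instance orthMeas (N : ℕ) : MeasurableSpace (Matrix.orthogonalGroup (Fin N) ℝ) := borel _

instance orthBorel (N : ℕ) : BorelSpace (Matrix.orthogonalGroup (Fin N) ℝ) := ⟨rfl⟩

instance orthCompact (N : ℕ) : CompactSpace (Matrix.orthogonalGroup (Fin N) ℝ) := by
  have key : IsCompact ((Matrix.orthogonalGroup (Fin N) ℝ :
      Submonoid (Matrix (Fin N) (Fin N) ℝ)) : Set (Matrix (Fin N) (Fin N) ℝ)) := by
    have h1 : IsCompact (Set.univ.pi fun _ : Fin N => Set.univ.pi fun _ : Fin N =>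
        Set.Icc (-1 : ℝ) 1) :=
      isCompact_univ_pi fun _ => isCompact_univ_pi fun _ => isCompact_Icc
    refine IsCompact.of_isClosed_subset h1 ?_ ?_
    · have : ((Matrix.orthogonalGroup (Fin N) ℝ : Submonoid (Matrix (Fin N) (Fin N) ℝ)) :
          Set (Matrix (Fin N) (Fin N) ℝ)) = {A | A * Aᵀ = 1} := by
        ext A
        exact Matrix.mem_orthogonalGroup_iff (Fin N) ℝ
      rw [this]
      exact isClosed_eq (continuous_id.matrix_mul continuous_id.matrix_transpose) continuous_const
    · intro A hA i _ j _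
      have h := entry_norm_bound_of_unitary (𝕜 := ℝ) hA i j
      rw [Real.norm_eq_abs] at h
      exact abs_le.1 h
  exact isCompact_iff_compactSpace.1 key

/-- the normalized Haar measure on the orthogonal group `O(N)` -/
noncomputable def haarO (N : ℕ) : Measure (Matrix.orthogonalGroup (Fin N) ℝ) :=
  Measure.haarMeasure ⊤

/-- the expected pressure `E P_N(β)` for the eigenvalues `lam` and a Haar distributed `O` -/
noncomputable def expectedPressure (N : ℕ) (β : ℝ) (lam : Fin N → ℝ) : ℝ :=
  ∫ O : Matrix.orthogonalGroup (Fin N) ℝ, pressure N β lam (O : Matrix (Fin N) (Fin N) ℝ) ∂(haarO N)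

/-- The eigenvalues `lam N 0, ..., lam N (N - 1)` satisfy the hypotheses of the problem with the
compactly supported probability measure `μ`: the empirical measures converge weakly to `μ`, and
the smallest and the largest eigenvalue converge to the edges of the support of `μ`. -/
structure Admissible (μ : Measure ℝ) (lam : ∀ N : ℕ, Fin N → ℝ) : Prop where
  prob : IsProbabilityMeasure μ
  compact_support : IsCompact μ.support
  weak : ∀ f : BoundedContinuousFunction ℝ ℝ,
    Tendsto (fun N : ℕ => (1 / (N : ℝ)) * ∑ i : Fin N, f (lam N i)) atTop (nhds (∫ x, f x ∂μ))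
  bot : Tendsto (fun N : ℕ => ⨅ i : Fin N, lam N i) atTop (nhds (sInf μ.support))
  top : Tendsto (fun N : ℕ => ⨆ i : Fin N, lam N i) atTop (nhds (sSup μ.support))

/-- `P_N(β)` converges to the constant `c` in probability -/
def ConvInProb (β : ℝ) (lam : ∀ N : ℕ, Fin N → ℝ) (c : ℝ) : Prop :=
  ∀ ε : ℝ, 0 < ε → Tendsto (fun N : ℕ => haarO N {O : Matrix.orthogonalGroup (Fin N) ℝ |
    ε ≤ |pressure N β (lam N) (O : Matrix (Fin N) (Fin N) ℝ) - c|}) atTop (nhds 0)

end Vale.Agent.P166A
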