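import Vale.Agent.P166A.Close

/-!
# P166: unsorted arrays, convergence in probability
-/

open MeasureTheory Matrix Filter

namespace Vale.Agent.P166A

/-- the eigenvalues in decreasing order -/
noncomputable def srt (lam : ∀ N : ℕ, Fin N → ℝ) (N : ℕ) : Fin N → ℝ :=
  lam N ∘ Tuple.sort (fun i => -lam N i)

theorem srt_antitone (lam : ∀ N : ℕ, Fin N → ℝ) (N : ℕ) : Antitone (srt lam N) := by
  intro i j hij
  have h := Tuple.monotone_sort (fun i => -lam N i) hij
  simp only [Function.comp] at h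
  unfold srt
  simp only [Function.comp]
  linarith

variable {μ μ' : Measure ℝ} {lam η : ∀ N : ℕ, Fin N → ℝ}

theorem srt_admissible (h : Admissible μ lam) : Admissible μ (srt lam) := by
  refine ⟨h.prob, h.compact_support, ?_, ?_, ?_⟩
  · intro f
    refine (h.weak f).congr fun N => ?_
    congr 1
    unfold srt
    exact (Equiv.sum_comp (Tuple.sort fun i => -lam N i) fun i => f (lam N i)).symm
  · refine h.bot.congr fun N => ?_
    unfold srt
    exact (Equiv.iInf_comp (g := fun i => lam N i) (Tuple.sort fun i => -lam N i)).symm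
  · refine h.top.congr fun N => ?_
    unfold srt
    exact (Equiv.iSup_comp (g := fun i => lam N i) (Tuple.sort fun i => -lam N i)).symm

/-- for sorted arrays with the same limit the pressures are close in mean -/
theorem L1_tendsto {β : ℝ} (hβ : 0 ≤ β) (h : Admissible μ lam) (h' : Admissible μ η)
    (hl : ∀ N, Antitone (lam N)) (hη : ∀ N, Antitone (η N)) :
    Tendsto (fun N : ℕ => ∫ O : Matrix.orthogonalGroup (Fin N) ℝ,
      |pressure N β (lam N) (O : Matrix (Fin N) (Fin N) ℝ) -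
      pressure N β (η N) (O : Matrix (Fin N) (Fin N) ℝ)| ∂(haarO N)) atTop (nhds 0) := by
  rw [Metric.tendsto_nhds]
  intro ε hε
  have hκ : 0 < ε / (2 * (β + 1)) := by positivity
  filter_upwards [psum_abs h h' hl hη hκ, eventually_gt_atTop 0] with N h1 h2
  have h3 := pressure_L1_le h2 hβ (hl N) (hη N) h1
  have h4 : 0 ≤ ∫ O : Matrix.orthogonalGroup (Fin N) ℝ,
      |pressure N β (lam N) (O : Matrix (Fin N) (Fin N) ℝ) -
      pressure N β (η N) (O : Matrix (Fin N) (Fin N) ℝ)| ∂(haarO N) :=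
    integral_nonneg fun O => abs_nonneg _
  rw [Real.dist_eq, sub_zero, abs_of_nonneg h4]
  have h5 : ε / (2 * (β + 1)) * β < ε := by
    rw [div_mul_eq_mul_div, div_lt_iff₀ (by positivity)]
    nlinarith
  linarith

theorem measure_perm (β : ℝ) {N : ℕ} (l : Fin N → ℝ) (σ : Equiv.Perm (Fin N)) (c ε : ℝ) :
    haarO N {O : Matrix.orthogonalGroup (Fin N) ℝ |
      ε ≤ |pressure N β (l ∘ σ) (O : Matrix (Fin N) (Fin N) ℝ) - c|} =
    haarO N {O : Matrix.orthogonalGroup (Fin N) ℝ |
      ε ≤ |pressure N β l (O : Matrix (Fin N) (Fin N) ℝ) - c|} := by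
  rw [← measure_preimage_mul (haarO N) (permO σ) {O : Matrix.orthogonalGroup (Fin N) ℝ |
      ε ≤ |pressure N β (l ∘ σ) (O : Matrix (Fin N) (Fin N) ℝ) - c|}]
  congr 1
  ext O
  simp only [Set.mem_preimage, Set.mem_ofPred_eq, pressure_perm]

theorem conv_srt_iff (β : ℝ) (lam : ∀ N : ℕ, Fin N → ℝ) (c : ℝ) :
    ConvInProb β (srt lam) c ↔ ConvInProb β lam c := by
  unfold ConvInProb
  refine forall₂_congr fun ε _ => ?_
  have : (fun N : ℕ => haarO N {O : Matrix.orthogonalGroup (Fin N) ℝ |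
      ε ≤ |pressure N β (srt lam N) (O : Matrix (Fin N) (Fin N) ℝ) - c|}) =
      fun N : ℕ => haarO N {O : Matrix.orthogonalGroup (Fin N) ℝ |
      ε ≤ |pressure N β (lam N) (O : Matrix (Fin N) (Fin N) ℝ) - c|} := by
    funext N
    exact measure_perm β (lam N) _ c ε
  rw [this]

theorem conv_of_L1 {β : ℝ} {c : ℝ} (h0 : Tendsto (fun N : ℕ =>
      ∫ O : Matrix.orthogonalGroup (Fin N) ℝ,
      |pressure N β (lam N) (O : Matrix (Fin N) (Fin N) ℝ) -
      pressure N β (η N) (O : Matrix (Fin N) (Fin N) ℝ)| ∂(haarO N)) atTop (nhds 0))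
    (hc : ConvInProb β lam c) : ConvInProb β η c := by
  intro ε hε
  have h1 := (ENNReal.tendsto_toReal_zero_iff (fun N => measure_ne_top _ _)).2
    (hc (ε / 2) (half_pos hε))
  refine (ENNReal.tendsto_toReal_zero_iff (fun N => measure_ne_top _ _)).1 ?_
  have h2 : Tendsto (fun N : ℕ => (haarO N {O : Matrix.orthogonalGroup (Fin N) ℝ |
      ε / 2 ≤ |pressure N β (lam N) (O : Matrix (Fin N) (Fin N) ℝ) - c|}).toReal +
      (2 / ε) * ∫ O : Matrix.orthogonalGroup (Fin N) ℝ,
      |pressure N β (lam N) (O : Matrix (Fin N) (Fin N) ℝ) -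
      pressure N β (η N) (O : Matrix (Fin N) (Fin N) ℝ)| ∂(haarO N)) atTop (nhds 0) := by
    have := h1.add (h0.const_mul (2 / ε))
    simpa using this
  refine squeeze_zero (fun N => ENNReal.toReal_nonneg) (fun N => ?_) h2
  have h3 : (ε / 2) * (haarO N).real {O : Matrix.orthogonalGroup (Fin N) ℝ | ε / 2 ≤
      |pressure N β (lam N) (O : Matrix (Fin N) (Fin N) ℝ) -
      pressure N β (η N) (O : Matrix (Fin N) (Fin N) ℝ)|} ≤
      ∫ O : Matrix.orthogonalGroup (Fin N) ℝ,
      |pressure N β (lam N) (O : Matrix (Fin N) (Fin N) ℝ) -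
      pressure N β (η N) (O : Matrix (Fin N) (Fin N) ℝ)| ∂(haarO N) :=
    mul_meas_ge_le_integral_of_nonneg (Eventually.of_forall fun O => abs_nonneg _)
      (integrable_of_cont ((cont_pressure β (lam N)).sub (cont_pressure β (η N))).abs) (ε / 2)
  have h4 : {O : Matrix.orthogonalGroup (Fin N) ℝ |
      ε ≤ |pressure N β (η N) (O : Matrix (Fin N) (Fin N) ℝ) - c|} ⊆
      {O : Matrix.orthogonalGroup (Fin N) ℝ |
      ε / 2 ≤ |pressure N β (lam N) (O : Matrix (Fin N) (Fin N) ℝ) - c|} ∪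
      {O : Matrix.orthogonalGroup (Fin N) ℝ | ε / 2 ≤
      |pressure N β (lam N) (O : Matrix (Fin N) (Fin N) ℝ) -
      pressure N β (η N) (O : Matrix (Fin N) (Fin N) ℝ)|} := by
    intro O hO
    simp only [Set.mem_union, Set.mem_ofPred_eq] at hO ⊢
    by_contra hcon
    push Not at hcon
    have h5 : |pressure N β (η N) (O : Matrix (Fin N) (Fin N) ℝ) - c| ≤
        |pressure N β (lam N) (O : Matrix (Fin N) (Fin N) ℝ) - c| +
        |pressure N β (lam N) (O : Matrix (Fin N) (Fin N) ℝ) -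
          pressure N β (η N) (O : Matrix (Fin N) (Fin N) ℝ)| := by
      have h6 := abs_sub_abs_le_abs_sub (pressure N β (η N) (O : Matrix (Fin N) (Fin N) ℝ) - c)
        (pressure N β (lam N) (O : Matrix (Fin N) (Fin N) ℝ) - c)
      have h7 : (pressure N β (η N) (O : Matrix (Fin N) (Fin N) ℝ) - c) -
        (pressure N β (lam N) (O : Matrix (Fin N) (Fin N) ℝ) - c) =
        -(pressure N β (lam N) (O : Matrix (Fin N) (Fin N) ℝ) -
          pressure N β (η N) (O : Matrix (Fin N) (Fin N) ℝ)) := by ring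
      rw [h7, abs_neg] at h6
      linarith
    linarith [hcon.1, hcon.2]
  have h5 : (haarO N).real {O : Matrix.orthogonalGroup (Fin N) ℝ |
      ε ≤ |pressure N β (η N) (O : Matrix (Fin N) (Fin N) ℝ) - c|} ≤
      (haarO N).real {O : Matrix.orthogonalGroup (Fin N) ℝ |
      ε / 2 ≤ |pressure N β (lam N) (O : Matrix (Fin N) (Fin N) ℝ) - c|} +
      (haarO N).real {O : Matrix.orthogonalGroup (Fin N) ℝ | ε / 2 ≤
      |pressure N β (lam N) (O : Matrix (Fin N) (Fin N) ℝ) -
      pressure N β (η N) (O : Matrix (Fin N) (Fin N) ℝ)|} :=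
    (measureReal_mono h4).trans (measureReal_union_le _ _)
  have h6 : (haarO N).real {O : Matrix.orthogonalGroup (Fin N) ℝ | ε / 2 ≤
      |pressure N β (lam N) (O : Matrix (Fin N) (Fin N) ℝ) -
      pressure N β (η N) (O : Matrix (Fin N) (Fin N) ℝ)|} ≤ (2 / ε) *
      ∫ O : Matrix.orthogonalGroup (Fin N) ℝ,
      |pressure N β (lam N) (O : Matrix (Fin N) (Fin N) ℝ) -
      pressure N β (η N) (O : Matrix (Fin N) (Fin N) ℝ)| ∂(haarO N) := by
    have := mul_le_mul_of_nonneg_left h3 (by positivity : 0 ≤ 2 / ε)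
    rw [← mul_assoc] at this
    have h7 : 2 / ε * (ε / 2) = 1 := by field_simp
    rw [h7, one_mul] at this
    exact this
  have h8 : ∀ s : Set (Matrix.orthogonalGroup (Fin N) ℝ), (haarO N s).toReal = (haarO N).real s :=
    fun s => rfl
  rw [h8, h8]
  linarith

end Vale.Agent.P166A
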