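import Vale.Agent.P166A.Basic

/-!
# P166: integration over the orthogonal group
-/

open MeasureTheory Matrix Filter

namespace Vale.Agent.P166A

variable {N : ℕ}

instance haarO_prob (N : ℕ) : IsProbabilityMeasure (haarO N) := by
  refine ⟨?_⟩
  have h := Measure.haarMeasure_self (K₀ := (⊤ : TopologicalSpace.PositiveCompacts
    (Matrix.orthogonalGroup (Fin N) ℝ)))
  simpa [haarO] using h

instance haarO_inv (N : ℕ) : (haarO N).IsMulLeftInvariant := by
  unfold haarO
  infer_instance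

theorem orth_mul (O : Matrix.orthogonalGroup (Fin N) ℝ) :
    (O : Matrix (Fin N) (Fin N) ℝ)ᵀ * (O : Matrix (Fin N) (Fin N) ℝ) = 1 := by
  have := O.2
  exact (Matrix.mem_orthogonalGroup_iff' (Fin N) ℝ).1 this

theorem cont_wgt (s : Fin N → Bool) (i : Fin N) :
    Continuous fun O : Matrix.orthogonalGroup (Fin N) ℝ =>
      wgt (O : Matrix (Fin N) (Fin N) ℝ) s i := by
  unfold wgt
  refine Continuous.pow ?_ 2
  exact (continuous_apply i).comp (Continuous.matrix_mulVec continuous_subtype_val continuous_const)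

theorem cont_ex (β : ℝ) (lam : Fin N → ℝ) (s : Fin N → Bool) :
    Continuous fun O : Matrix.orthogonalGroup (Fin N) ℝ =>
      ex β lam (O : Matrix (Fin N) (Fin N) ℝ) s := by
  unfold ex
  refine continuous_const.mul (continuous_finsetSum _ fun i _ => ?_)
  exact continuous_const.mul (cont_wgt s i)

theorem cont_Zf (β : ℝ) (lam : Fin N → ℝ) :
    Continuous fun O : Matrix.orthogonalGroup (Fin N) ℝ =>
      Zf β lam (O : Matrix (Fin N) (Fin N) ℝ) := by
  unfold Zf
  exact continuous_finsetSum _ fun s _ => Real.continuous_exp.comp (cont_ex β lam s)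

theorem cont_Lf (β : ℝ) (lam : Fin N → ℝ) :
    Continuous fun O : Matrix.orthogonalGroup (Fin N) ℝ =>
      Lf β lam (O : Matrix (Fin N) (Fin N) ℝ) := by
  unfold Lf
  exact (cont_Zf β lam).log fun O => (Zf_pos β lam O).ne'

theorem cont_gf (β : ℝ) (lam : Fin N → ℝ) (i : Fin N) :
    Continuous fun O : Matrix.orthogonalGroup (Fin N) ℝ =>
      gf β lam (O : Matrix (Fin N) (Fin N) ℝ) i := by
  unfold gf
  refine continuous_const.mul (continuous_finsetSum _ fun s _ => ?_)
  refine Continuous.mul ?_ (cont_wgt s i)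
  exact (Real.continuous_exp.comp (cont_ex β lam s)).div (cont_Zf β lam)
    fun O => (Zf_pos β lam O).ne'

theorem integrable_of_cont {f : Matrix.orthogonalGroup (Fin N) ℝ → ℝ} (hf : Continuous f) :
    Integrable f (haarO N) :=
  hf.integrable_of_hasCompactSupport (HasCompactSupport.of_compactSpace f)

/-- the expected log partition function -/
noncomputable def Phi (N : ℕ) (β : ℝ) (lam : Fin N → ℝ) : ℝ :=
  ∫ O : Matrix.orthogonalGroup (Fin N) ℝ, Lf β lam (O : Matrix (Fin N) (Fin N) ℝ) ∂(haarO N)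

/-- the expected gradient -/
noncomputable def Gf (N : ℕ) (β : ℝ) (lam : Fin N → ℝ) (i : Fin N) : ℝ :=
  ∫ O : Matrix.orthogonalGroup (Fin N) ℝ, gf β lam (O : Matrix (Fin N) (Fin N) ℝ) i ∂(haarO N)

theorem Gf_nonneg {β : ℝ} (hβ : 0 ≤ β) (lam : Fin N → ℝ) (i : Fin N) : 0 ≤ Gf N β lam i :=
  integral_nonneg fun O => gf_nonneg hβ lam O i

theorem sum_Gf (β : ℝ) (lam : Fin N → ℝ) : ∑ i, Gf N β lam i = β * N / 2 := by
  unfold Gf
  rw [← integral_finsetSum _ fun i _ => integrable_of_cont (cont_gf β lam i)]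
  have : (fun O : Matrix.orthogonalGroup (Fin N) ℝ =>
      ∑ i, gf β lam (O : Matrix (Fin N) (Fin N) ℝ) i) = fun _ => β * N / 2 := by
    funext O
    exact sum_gf β lam (orth_mul O)
  rw [this]
  simp

theorem Phi_ge (β : ℝ) (lam η : Fin N → ℝ) :
    Phi N β lam + ∑ i, Gf N β lam i * (η i - lam i) ≤ Phi N β η := by
  unfold Phi Gf
  have h1 : ∑ i, (∫ O : Matrix.orthogonalGroup (Fin N) ℝ,
      gf β lam (O : Matrix (Fin N) (Fin N) ℝ) i ∂(haarO N)) * (η i - lam i)
      = ∫ O : Matrix.orthogonalGroup (Fin N) ℝ,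
        ∑ i, gf β lam (O : Matrix (Fin N) (Fin N) ℝ) i * (η i - lam i) ∂(haarO N) := by
    rw [integral_finsetSum _ fun i _ =>
      (integrable_of_cont (cont_gf β lam i)).mul_const (η i - lam i)]
    refine Finset.sum_congr rfl fun i _ => ?_
    rw [integral_mul_const]
  rw [h1, ← integral_add (integrable_of_cont (cont_Lf β lam))]
  · refine integral_mono ?_ (integrable_of_cont (cont_Lf β η)) fun O => Lf_ge β lam η O
    refine (integrable_of_cont (cont_Lf β lam)).add ?_
    exact integrable_finsetSum _ fun i _ =>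
      (integrable_of_cont (cont_gf β lam i)).mul_const (η i - lam i)
  · exact integrable_finsetSum _ fun i _ =>
      (integrable_of_cont (cont_gf β lam i)).mul_const (η i - lam i)

/-- permutation matrices are orthogonal -/
noncomputable def permO (σ : Equiv.Perm (Fin N)) : Matrix.orthogonalGroup (Fin N) ℝ :=
  ⟨σ.permMatrix ℝ, by
    rw [Matrix.mem_orthogonalGroup_iff, Matrix.transpose_permMatrix, ← Matrix.permMatrix_mul]
    simp⟩

theorem wgt_perm (σ : Equiv.Perm (Fin N)) (O : Matrix.orthogonalGroup (Fin N) ℝ)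
    (s : Fin N → Bool) (i : Fin N) :
    wgt ((permO σ * O : Matrix.orthogonalGroup (Fin N) ℝ) : Matrix (Fin N) (Fin N) ℝ) s i
      = wgt (O : Matrix (Fin N) (Fin N) ℝ) s (σ i) := by
  unfold wgt
  have : ((permO σ * O : Matrix.orthogonalGroup (Fin N) ℝ) : Matrix (Fin N) (Fin N) ℝ)
      = σ.permMatrix ℝ * (O : Matrix (Fin N) (Fin N) ℝ) := rfl
  rw [this, ← mulVec_mulVec, Matrix.permMatrix_mulVec]
  rfl

theorem ex_perm (β : ℝ) (lam : Fin N → ℝ) (σ : Equiv.Perm (Fin N))
    (O : Matrix.orthogonalGroup (Fin N) ℝ) (s : Fin N → Bool) :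
    ex β (lam ∘ σ) ((permO σ * O : Matrix.orthogonalGroup (Fin N) ℝ) :
      Matrix (Fin N) (Fin N) ℝ) s = ex β lam (O : Matrix (Fin N) (Fin N) ℝ) s := by
  unfold ex
  congr 1
  simp only [wgt_perm, Function.comp]
  exact Equiv.sum_comp σ fun i => lam i * wgt (O : Matrix (Fin N) (Fin N) ℝ) s i

theorem Zf_perm (β : ℝ) (lam : Fin N → ℝ) (σ : Equiv.Perm (Fin N))
    (O : Matrix.orthogonalGroup (Fin N) ℝ) :
    Zf β (lam ∘ σ) ((permO σ * O : Matrix.orthogonalGroup (Fin N) ℝ) :
      Matrix (Fin N) (Fin N) ℝ) = Zf β lam (O : Matrix (Fin N) (Fin N) ℝ) := by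
  unfold Zf
  simp only [ex_perm]

theorem Lf_perm (β : ℝ) (lam : Fin N → ℝ) (σ : Equiv.Perm (Fin N))
    (O : Matrix.orthogonalGroup (Fin N) ℝ) :
    Lf β (lam ∘ σ) ((permO σ * O : Matrix.orthogonalGroup (Fin N) ℝ) :
      Matrix (Fin N) (Fin N) ℝ) = Lf β lam (O : Matrix (Fin N) (Fin N) ℝ) := by
  unfold Lf
  rw [Zf_perm]

theorem gf_perm (β : ℝ) (lam : Fin N → ℝ) (σ : Equiv.Perm (Fin N))
    (O : Matrix.orthogonalGroup (Fin N) ℝ) (i : Fin N) :
    gf β (lam ∘ σ) ((permO σ * O : Matrix.orthogonalGroup (Fin N) ℝ) :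
      Matrix (Fin N) (Fin N) ℝ) i = gf β lam (O : Matrix (Fin N) (Fin N) ℝ) (σ i) := by
  unfold gf
  simp only [ex_perm, Zf_perm, wgt_perm]

theorem pressure_perm (β : ℝ) (lam : Fin N → ℝ) (σ : Equiv.Perm (Fin N))
    (O : Matrix.orthogonalGroup (Fin N) ℝ) :
    pressure N β (lam ∘ σ) ((permO σ * O : Matrix.orthogonalGroup (Fin N) ℝ) :
      Matrix (Fin N) (Fin N) ℝ) = pressure N β lam (O : Matrix (Fin N) (Fin N) ℝ) := by
  rw [pressure_eq, pressure_eq, Lf_perm]

theorem Phi_perm (β : ℝ) (lam : Fin N → ℝ) (σ : Equiv.Perm (Fin N)) :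
    Phi N β (lam ∘ σ) = Phi N β lam := by
  unfold Phi
  rw [← integral_mul_left_eq_self (μ := haarO N) (fun O : Matrix.orthogonalGroup (Fin N) ℝ =>
    Lf β (lam ∘ σ) (O : Matrix (Fin N) (Fin N) ℝ)) (permO σ)]
  simp only [Lf_perm]

theorem Gf_perm (β : ℝ) (lam : Fin N → ℝ) (σ : Equiv.Perm (Fin N)) (i : Fin N) :
    Gf N β (lam ∘ σ) i = Gf N β lam (σ i) := by
  unfold Gf
  rw [← integral_mul_left_eq_self (μ := haarO N) (fun O : Matrix.orthogonalGroup (Fin N) ℝ =>
    gf β (lam ∘ σ) (O : Matrix (Fin N) (Fin N) ℝ) i) (permO σ)]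
  simp only [gf_perm]

/-- the law of any function of the pressure does not depend on the order of the eigenvalues -/
theorem integral_pressure_perm (β : ℝ) (lam : Fin N → ℝ) (σ : Equiv.Perm (Fin N)) (h : ℝ → ℝ) :
    ∫ O : Matrix.orthogonalGroup (Fin N) ℝ,
        h (pressure N β (lam ∘ σ) (O : Matrix (Fin N) (Fin N) ℝ)) ∂(haarO N)
      = ∫ O : Matrix.orthogonalGroup (Fin N) ℝ,
        h (pressure N β lam (O : Matrix (Fin N) (Fin N) ℝ)) ∂(haarO N) := by
  rw [← integral_mul_left_eq_self (μ := haarO N) (fun O : Matrix.orthogonalGroup (Fin N) ℝ =>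
    h (pressure N β (lam ∘ σ) (O : Matrix (Fin N) (Fin N) ℝ))) (permO σ)]
  simp only [pressure_perm]

/-- larger eigenvalues have larger expected weights -/
theorem Gf_mono (β : ℝ) (lam : Fin N → ℝ) {i j : Fin N} (h : lam i ≤ lam j) :
    Gf N β lam i ≤ Gf N β lam j := by
  rcases eq_or_lt_of_le h with he | hl
  · have h1 : lam ∘ (Equiv.swap i j) = lam := by
      funext k
      simp only [Function.comp]
      rcases eq_or_ne k i with rfl | hki
      · rw [Equiv.swap_apply_left]
        exact he.symm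
      · rcases eq_or_ne k j with rfl | hkj
        · rw [Equiv.swap_apply_right]
          exact he
        · rw [Equiv.swap_apply_of_ne_of_ne hki hkj]
    have h2 := Gf_perm β lam (Equiv.swap i j) i
    rw [h1, Equiv.swap_apply_left] at h2
    exact h2.le
  · have hij : i ≠ j := by
      rintro rfl
      exact lt_irrefl _ hl
    have h1 := Phi_ge β lam (lam ∘ (Equiv.swap i j))
    rw [Phi_perm] at h1
    have h2 : ∑ k, Gf N β lam k * ((lam ∘ (Equiv.swap i j)) k - lam k)
        = Gf N β lam i * (lam j - lam i) + Gf N β lam j * (lam i - lam j) := by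
      rw [← Finset.sum_subset (Finset.subset_univ {i, j}), Finset.sum_pair hij]
      · simp [Equiv.swap_apply_left, Equiv.swap_apply_right]
      · intro k _ hk
        simp only [Finset.mem_insert, Finset.mem_singleton, not_or] at hk
        simp [Equiv.swap_apply_of_ne_of_ne hk.1 hk.2]
    rw [h2] at h1
    nlinarith

end Vale.Agent.P166A
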